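import Vale.Agent.P310.Final

open Vale.Agent.P310

theorem Vale.Agent.Results.P310.TimeLowerBound.result :
    ∃ c : ℝ, 0 < c ∧ ∃ k₀ : ℕ, ∀ k ≥ k₀,
      ∀ A : Turing.TM2Computable encodePair Computability.encodeBool (wlAnswer k),
        ∃ n₀ : ℕ, ∀ n ≥ n₀, ∃ G H : SimpleGraph (Fin n),
          (n : ℝ) ^ (c * k) ≤ (A.outputsFun ⟨n, G, H⟩).steps :=
  Vale.Agent.P310.main
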